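import Mathlib

/-!
# Row 211, statement S0329: transport of the planar sheared-square cover (S0326) to `ℝ³`

`transport` derives the conclusion of S0329 from
* `hPar`: an upper bound for the normalised 2-dimensional Hausdorff measure of a closed
  parallelogram in `ℝ³` by its Gram area, and
* `hS`: the conclusion of S0326 (for all `ε' > 0`) for the same data with `L = M`.

Construction: a sheared square cylinder `{(s, ξ) : ξ ∈ T + s g}` is mapped by
`Ψ (s, ξ) = (s, ξ₀, h ξ₁)` to a genuine cylinder with axis `(1, g₀, h g₁)`; its base in the plane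
orthogonal to the axis is the orthogonal projection of the parallelogram `{0} × diag(1,h) T`,
whose area is `h ‖a‖² / √(1 + g₀² + h² g₁²)`.  Bases are made relatively open by enlarging the
parameter square to `(-θ, 1+θ)²`.
-/

set_option autoImplicit false
open MeasureTheory
open scoped ENNReal

namespace Crest.Agent.Helper60.Ruled3

/-! ### coordinates -/

lemma inner2 (v w : EuclideanSpace ℝ (Fin 2)) : inner ℝ v w = v 0 * w 0 + v 1 * w 1 := by
  simp [PiLp.inner_apply, Fin.sum_univ_two]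
  ring

lemma inner3 (v w : EuclideanSpace ℝ (Fin 3)) :
    inner ℝ v w = v 0 * w 0 + v 1 * w 1 + v 2 * w 2 := by
  simp [PiLp.inner_apply, Fin.sum_univ_three]
  ring

lemma nsq2 (v : EuclideanSpace ℝ (Fin 2)) : ‖v‖ ^ 2 = v 0 ^ 2 + v 1 ^ 2 := by
  rw [← real_inner_self_eq_norm_sq, inner2]; ring

lemma nsq3 (v : EuclideanSpace ℝ (Fin 3)) : ‖v‖ ^ 2 = v 0 ^ 2 + v 1 ^ 2 + v 2 ^ 2 := by
  rw [← real_inner_self_eq_norm_sq, inner3]; ring

/-- the lift `ξ ↦ (0, ξ₀, h ξ₁)` -/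
noncomputable def lift (h : ℝ) (ξ : EuclideanSpace ℝ (Fin 2)) : EuclideanSpace ℝ (Fin 3) :=
  !₂[0, ξ 0, h * ξ 1]

/-- the axis `(1, g₀, h g₁)` -/
noncomputable def axis (h : ℝ) (g : EuclideanSpace ℝ (Fin 2)) : EuclideanSpace ℝ (Fin 3) :=
  !₂[1, g 0, h * g 1]

/-- planar coordinates of a point of `ℝ³` along the axis -/
noncomputable def flat (h : ℝ) (g : EuclideanSpace ℝ (Fin 2)) (x : EuclideanSpace ℝ (Fin 3)) :
    EuclideanSpace ℝ (Fin 2) :=
  !₂[x 1 - x 0 * g 0, x 2 / h - x 0 * g 1]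

/-- the length of the axis -/
noncomputable def nrm (h : ℝ) (g : EuclideanSpace ℝ (Fin 2)) : ℝ :=
  Real.sqrt (1 + (g 0) ^ 2 + h ^ 2 * (g 1) ^ 2)

@[simp] lemma lift_zero (h : ℝ) (ξ : EuclideanSpace ℝ (Fin 2)) : lift h ξ 0 = 0 := rfl
@[simp] lemma lift_one (h : ℝ) (ξ : EuclideanSpace ℝ (Fin 2)) : lift h ξ 1 = ξ 0 := rfl
@[simp] lemma lift_two (h : ℝ) (ξ : EuclideanSpace ℝ (Fin 2)) : lift h ξ 2 = h * ξ 1 := rfl
@[simp] lemma axis_zero (h : ℝ) (g : EuclideanSpace ℝ (Fin 2)) : axis h g 0 = 1 := rfl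
@[simp] lemma axis_one (h : ℝ) (g : EuclideanSpace ℝ (Fin 2)) : axis h g 1 = g 0 := rfl
@[simp] lemma axis_two (h : ℝ) (g : EuclideanSpace ℝ (Fin 2)) : axis h g 2 = h * g 1 := rfl
@[simp] lemma flat_zero (h : ℝ) (g : EuclideanSpace ℝ (Fin 2)) (x : EuclideanSpace ℝ (Fin 3)) :
    flat h g x 0 = x 1 - x 0 * g 0 := rfl
@[simp] lemma flat_one (h : ℝ) (g : EuclideanSpace ℝ (Fin 2)) (x : EuclideanSpace ℝ (Fin 3)) :
    flat h g x 1 = x 2 / h - x 0 * g 1 := rfl

lemma nrm_pos (h : ℝ) (g : EuclideanSpace ℝ (Fin 2)) : 0 < nrm h g := by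
  unfold nrm
  apply Real.sqrt_pos.mpr
  positivity

lemma nrm_sq (h : ℝ) (g : EuclideanSpace ℝ (Fin 2)) :
    nrm h g ^ 2 = 1 + (g 0) ^ 2 + h ^ 2 * (g 1) ^ 2 := by
  unfold nrm
  rw [Real.sq_sqrt]
  positivity

lemma norm_axis (h : ℝ) (g : EuclideanSpace ℝ (Fin 2)) : ‖axis h g‖ = nrm h g := by
  have h1 : ‖axis h g‖ ^ 2 = nrm h g ^ 2 := by
    rw [nsq3, nrm_sq]; simp; ring
  have h2 := nrm_pos h g
  nlinarith [norm_nonneg (axis h g), sq_nonneg (‖axis h g‖ - nrm h g)]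

lemma continuous_flat (h : ℝ) (g : EuclideanSpace ℝ (Fin 2)) : Continuous (flat h g) := by
  unfold flat
  fun_prop

lemma flat_add (h : ℝ) (g : EuclideanSpace ℝ (Fin 2)) (x y : EuclideanSpace ℝ (Fin 3)) :
    flat h g (x + y) = flat h g x + flat h g y := by
  ext i
  fin_cases i
  · simp; ring
  · simp; ring

lemma flat_smul (h : ℝ) (g : EuclideanSpace ℝ (Fin 2)) (t : ℝ) (x : EuclideanSpace ℝ (Fin 3)) :
    flat h g (t • x) = t • flat h g x := by
  ext i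
  fin_cases i
  · simp; ring
  · simp; ring

lemma flat_axis (h : ℝ) (hh : h ≠ 0) (g : EuclideanSpace ℝ (Fin 2)) : flat h g (axis h g) = 0 := by
  ext i
  fin_cases i
  · simp
  · simp; field_simp; ring

lemma decomp (h : ℝ) (hh : h ≠ 0) (g : EuclideanSpace ℝ (Fin 2)) (x : EuclideanSpace ℝ (Fin 3)) :
    x = x 0 • axis h g + lift h (flat h g x) := by
  ext i
  fin_cases i
  · simp
  · simp
  · simp; field_simp; ring

lemma lift_add (h : ℝ) (ξ η : EuclideanSpace ℝ (Fin 2)) : lift h (ξ + η) = lift h ξ + lift h η := by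
  ext i
  fin_cases i
  · simp
  · simp
  · simp; ring

lemma lift_smul (h t : ℝ) (ξ : EuclideanSpace ℝ (Fin 2)) : lift h (t • ξ) = t • lift h ξ := by
  ext i
  fin_cases i
  · simp
  · simp
  · simp; ring

/-! ### planar orthogonal decomposition -/

lemma decomp2 (a b v : EuclideanSpace ℝ (Fin 2)) (ha : a ≠ 0) (hb : ‖b‖ = ‖a‖)
    (hab : inner ℝ a b = 0) :
    v = (inner ℝ v a / ‖a‖ ^ 2) • a + (inner ℝ v b / ‖a‖ ^ 2) • b := by
  have hA : 0 < ‖a‖ ^ 2 := by positivity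
  have hb2 : ‖b‖ ^ 2 = ‖a‖ ^ 2 := by rw [hb]
  rw [nsq2] at hA
  rw [nsq2, nsq2] at hb2
  rw [inner2] at hab
  have e1 : (b 0 ^ 2 - a 1 ^ 2) * (a 0 ^ 2 + a 1 ^ 2) = 0 := by
    linear_combination (b 0 * a 0 - a 1 * b 1) * hab + a 1 ^ 2 * hb2
  have e2 : (a 0 * a 1 + b 0 * b 1) * (a 0 ^ 2 + a 1 ^ 2) = 0 := by
    linear_combination (b 1 * a 0 + b 0 * a 1) * hab - a 0 * a 1 * hb2
  have e1' : b 0 ^ 2 = a 1 ^ 2 := by
    rcases mul_eq_zero.mp e1 with h | h
    · linarith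
    · exact absurd h hA.ne'
  have e2' : a 0 * a 1 + b 0 * b 1 = 0 := by
    rcases mul_eq_zero.mp e2 with h | h
    · exact h
    · exact absurd h hA.ne'
  have e3 : b 1 ^ 2 = a 0 ^ 2 := by linarith
  ext i
  fin_cases i
  · simp only [Fin.zero_eta, PiLp.add_apply, PiLp.smul_apply, smul_eq_mul, inner2, nsq2]
    field_simp
    linear_combination (-(v 0)) * e1' - v 1 * e2'
  · simp only [Fin.mk_one, PiLp.add_apply, PiLp.smul_apply, smul_eq_mul, inner2, nsq2]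
    field_simp
    linear_combination (-(v 1)) * e3 - v 0 * e2'

/-! ### parallelograms -/

lemma mem_parallelogram (p A B : EuclideanSpace ℝ (Fin 3)) (l m : ℝ)
    (hl : l ∈ Set.Icc (0 : ℝ) 1) (hm : m ∈ Set.Icc (0 : ℝ) 1) :
    p + l • A + m • B ∈
      convexHull ℝ ({p, p + A, p + B, p + A + B} : Set (EuclideanSpace ℝ (Fin 3))) := by
  set S : Set (EuclideanSpace ℝ (Fin 3)) := {p, p + A, p + B, p + A + B} with hS
  have hconv := convex_convexHull ℝ S
  have h0 : p ∈ convexHull ℝ S := subset_convexHull ℝ S (by simp [hS])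
  have h1 : p + A ∈ convexHull ℝ S := subset_convexHull ℝ S (by simp [hS])
  have h2 : p + B ∈ convexHull ℝ S := subset_convexHull ℝ S (by simp [hS])
  have h3 : p + A + B ∈ convexHull ℝ S := subset_convexHull ℝ S (by simp [hS])
  have q1 : p + l • A ∈ convexHull ℝ S := by
    have := hconv.add_smul_sub_mem h0 h1 hl
    simpa using this
  have q2 : p + B + l • A ∈ convexHull ℝ S := by
    have := hconv.add_smul_sub_mem h2 h3 hl
    have e : p + A + B - (p + B) = A := by abel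
    rwa [e] at this
  have := hconv.add_smul_sub_mem q1 q2 hm
  have e : p + B + l • A - (p + l • A) = B := by abel
  rwa [e] at this

/-- orthogonal projection along a vector `u` -/
noncomputable def proj (u x : EuclideanSpace ℝ (Fin 3)) : EuclideanSpace ℝ (Fin 3) :=
  x - inner ℝ x u • u

lemma proj_add (u x y : EuclideanSpace ℝ (Fin 3)) : proj u (x + y) = proj u x + proj u y := by
  unfold proj
  rw [inner_add_left, add_smul]
  abel

lemma proj_smul (u : EuclideanSpace ℝ (Fin 3)) (t : ℝ) (x : EuclideanSpace ℝ (Fin 3)) :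
    proj u (t • x) = t • proj u x := by
  unfold proj
  rw [inner_smul_left, smul_sub, smul_smul]
  simp

lemma proj_self (u : EuclideanSpace ℝ (Fin 3)) (hu : ‖u‖ = 1) : proj u u = 0 := by
  unfold proj
  rw [real_inner_self_eq_norm_sq, hu]
  simp

lemma proj_of_orth (u x : EuclideanSpace ℝ (Fin 3)) (hx : inner ℝ x u = 0) : proj u x = x := by
  unfold proj
  rw [hx]; simp

lemma inner_proj (u x : EuclideanSpace ℝ (Fin 3)) (hu : ‖u‖ = 1) : inner ℝ (proj u x) u = 0 := by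
  unfold proj
  rw [inner_sub_left, inner_smul_left, real_inner_self_eq_norm_sq, hu]
  simp

lemma inner_proj_proj (u x y : EuclideanSpace ℝ (Fin 3)) (hu : ‖u‖ = 1) :
    inner ℝ (proj u x) (proj u y) = inner ℝ x y - inner ℝ x u * inner ℝ y u := by
  unfold proj
  rw [inner_sub_left, inner_sub_right, inner_sub_right, inner_smul_left, inner_smul_right,
    inner_smul_left, inner_smul_right, real_inner_self_eq_norm_sq, hu,
    real_inner_comm y u]
  simp
  ring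

/-! ### the unit axis direction and the open base -/

/-- the unit vector along the axis -/
noncomputable def dir (h : ℝ) (g : EuclideanSpace ℝ (Fin 2)) : EuclideanSpace ℝ (Fin 3) :=
  (nrm h g)⁻¹ • axis h g

lemma norm_dir (h : ℝ) (g : EuclideanSpace ℝ (Fin 2)) : ‖dir h g‖ = 1 := by
  unfold dir
  rw [norm_smul, norm_axis, norm_inv, Real.norm_of_nonneg (nrm_pos h g).le]
  exact inv_mul_cancel₀ (nrm_pos h g).ne'

lemma proj_axis (h : ℝ) (g : EuclideanSpace ℝ (Fin 2)) : proj (dir h g) (axis h g) = 0 := by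
  have e : axis h g = nrm h g • dir h g := by
    unfold dir
    rw [smul_smul, mul_inv_cancel₀ (nrm_pos h g).ne', one_smul]
  conv_lhs => rw [e]
  rw [proj_smul, proj_self _ (norm_dir h g), smul_zero]

lemma flat_proj (h : ℝ) (hh : h ≠ 0) (g : EuclideanSpace ℝ (Fin 2))
    (x : EuclideanSpace ℝ (Fin 3)) : flat h g (proj (dir h g) x) = flat h g x := by
  have e : proj (dir h g) x = x + (-(inner ℝ x (dir h g) * (nrm h g)⁻¹)) • axis h g := by
    unfold proj dir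
    rw [smul_smul, neg_smul]
    abel
  rw [e, flat_add, flat_smul, flat_axis h hh, smul_zero, add_zero]

/-- the open set cutting the base out of the plane orthogonal to the axis -/
def opn (h θ : ℝ) (c a b g : EuclideanSpace ℝ (Fin 2)) : Set (EuclideanSpace ℝ (Fin 3)) :=
  {x | -θ * ‖a‖ ^ 2 < inner ℝ (flat h g x - c) a ∧ inner ℝ (flat h g x - c) a < (1 + θ) * ‖a‖ ^ 2 ∧
    -θ * ‖a‖ ^ 2 < inner ℝ (flat h g x - c) b ∧ inner ℝ (flat h g x - c) b < (1 + θ) * ‖a‖ ^ 2}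

lemma isOpen_opn (h θ : ℝ) (c a b g : EuclideanSpace ℝ (Fin 2)) : IsOpen (opn h θ c a b g) := by
  have hf := continuous_flat h g
  have hc1 : Continuous fun x : EuclideanSpace ℝ (Fin 3) => inner ℝ (flat h g x - c) a := by
    fun_prop
  have hc2 : Continuous fun x : EuclideanSpace ℝ (Fin 3) => inner ℝ (flat h g x - c) b := by
    fun_prop
  unfold opn
  exact (isOpen_lt continuous_const hc1).and ((isOpen_lt hc1 continuous_const).and
    ((isOpen_lt continuous_const hc2).and (isOpen_lt hc2 continuous_const)))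

/-- the base of the cylinder -/
def base (h θ : ℝ) (c a b g : EuclideanSpace ℝ (Fin 2)) : Set (EuclideanSpace ℝ (Fin 3)) :=
  opn h θ c a b g ∩ {x | inner ℝ x (dir h g) = 0}

lemma base_subset (h θ : ℝ) (hh : 0 < h) (hθ : 0 < θ) (c a b g : EuclideanSpace ℝ (Fin 2))
    (ha : a ≠ 0) (hb : ‖b‖ = ‖a‖) (hab : inner ℝ a b = 0) :
    base h θ c a b g ⊆ convexHull ℝ
      ({proj (dir h g) (lift h (c - θ • a - θ • b)),
        proj (dir h g) (lift h (c - θ • a - θ • b)) + (1 + 2 * θ) • proj (dir h g) (lift h a),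
        proj (dir h g) (lift h (c - θ • a - θ • b)) + (1 + 2 * θ) • proj (dir h g) (lift h b),
        proj (dir h g) (lift h (c - θ • a - θ • b)) + (1 + 2 * θ) • proj (dir h g) (lift h a) +
          (1 + 2 * θ) • proj (dir h g) (lift h b)} : Set (EuclideanSpace ℝ (Fin 3))) := by
  intro x hx
  obtain ⟨⟨h1, h2, h3, h4⟩, hx0⟩ := hx
  have hx0' : inner ℝ x (dir h g) = 0 := hx0
  have hA : 0 < ‖a‖ ^ 2 := by positivity
  set ξ := flat h g x with hξ
  set s := inner ℝ (ξ - c) a / ‖a‖ ^ 2 with hs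
  set t := inner ℝ (ξ - c) b / ‖a‖ ^ 2 with ht
  have hdec : ξ - c = s • a + t • b := decomp2 a b (ξ - c) ha hb hab
  have hs1 : -θ < s := by rw [hs, lt_div_iff₀ hA]; exact h1
  have hs2 : s < 1 + θ := by rw [hs, div_lt_iff₀ hA]; exact h2
  have ht1 : -θ < t := by rw [ht, lt_div_iff₀ hA]; exact h3
  have ht2 : t < 1 + θ := by rw [ht, div_lt_iff₀ hA]; exact h4
  have hpos : 0 < 1 + 2 * θ := by linarith
  have e1 : ξ = (c - θ • a - θ • b) + (s + θ) • a + (t + θ) • b := by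
    have : ξ = c + (s • a + t • b) := by rw [← hdec]; abel
    rw [this, add_smul, add_smul]; abel
  have e2 : x = proj (dir h g) (lift h ξ) := by
    have hd := decomp h hh.ne' g x
    have : proj (dir h g) x = proj (dir h g) (lift h ξ) := by
      conv_lhs => rw [hd]
      rw [proj_add, proj_smul, proj_axis, smul_zero, zero_add]
    rw [← this, proj_of_orth _ _ hx0']
  have e3 : x = proj (dir h g) (lift h (c - θ • a - θ • b)) +
      ((s + θ) / (1 + 2 * θ)) • ((1 + 2 * θ) • proj (dir h g) (lift h a)) +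
      ((t + θ) / (1 + 2 * θ)) • ((1 + 2 * θ) • proj (dir h g) (lift h b)) := by
    rw [smul_smul, smul_smul, div_mul_cancel₀ _ hpos.ne', div_mul_cancel₀ _ hpos.ne']
    conv_lhs => rw [e2, e1]
    rw [lift_add, lift_add, lift_smul, lift_smul, proj_add, proj_add, proj_smul, proj_smul]
  rw [e3]
  apply mem_parallelogram
  · constructor
    · apply div_nonneg <;> linarith
    · rw [div_le_one hpos]; linarith
  · constructor
    · apply div_nonneg <;> linarith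
    · rw [div_le_one hpos]; linarith

lemma inner_lift_dir_mul (h : ℝ) (g x y : EuclideanSpace ℝ (Fin 2)) :
    inner ℝ (lift h x) (dir h g) * inner ℝ (lift h y) (dir h g) =
      (x 0 * g 0 + h ^ 2 * (x 1 * g 1)) * (y 0 * g 0 + h ^ 2 * (y 1 * g 1)) /
        (1 + (g 0) ^ 2 + h ^ 2 * (g 1) ^ 2) := by
  have hN := nrm_sq h g
  have hNp := nrm_pos h g
  unfold dir
  rw [inner_smul_right, inner_smul_right, inner3, inner3, ← hN]
  simp only [lift_zero, lift_one, lift_two, axis_zero, axis_one, axis_two]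
  field_simp
  ring

lemma gram_proj_lift (h : ℝ) (g a b : EuclideanSpace ℝ (Fin 2)) :
    ‖proj (dir h g) (lift h a)‖ ^ 2 * ‖proj (dir h g) (lift h b)‖ ^ 2 -
        (inner ℝ (proj (dir h g) (lift h a)) (proj (dir h g) (lift h b))) ^ 2 =
      h ^ 2 * (a 0 * b 1 - a 1 * b 0) ^ 2 / (1 + (g 0) ^ 2 + h ^ 2 * (g 1) ^ 2) := by
  have hQ : 0 < 1 + (g 0) ^ 2 + h ^ 2 * (g 1) ^ 2 := by positivity
  rw [← real_inner_self_eq_norm_sq, ← real_inner_self_eq_norm_sq,
    inner_proj_proj _ _ _ (norm_dir h g), inner_proj_proj _ _ _ (norm_dir h g),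
    inner_proj_proj _ _ _ (norm_dir h g), inner_lift_dir_mul, inner_lift_dir_mul,
    inner_lift_dir_mul, inner3, inner3, inner3]
  simp only [lift_zero, lift_one, lift_two]
  field_simp
  ring

lemma area_formula (h θ : ℝ) (hh : 0 < h) (hθ : 0 < θ) (a b g : EuclideanSpace ℝ (Fin 2))
    (hb : ‖b‖ = ‖a‖) (hab : inner ℝ a b = 0) :
    Real.sqrt (‖(1 + 2 * θ) • proj (dir h g) (lift h a)‖ ^ 2 *
        ‖(1 + 2 * θ) • proj (dir h g) (lift h b)‖ ^ 2 -
        (inner ℝ ((1 + 2 * θ) • proj (dir h g) (lift h a))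
          ((1 + 2 * θ) • proj (dir h g) (lift h b))) ^ 2) =
      (1 + 2 * θ) ^ 2 * (h * (‖a‖ ^ 2 / Real.sqrt (1 + (g 0) ^ 2 + h ^ 2 * (g 1) ^ 2))) := by
  have hpos : 0 < 1 + 2 * θ := by linarith
  have hQ : 0 < 1 + (g 0) ^ 2 + h ^ 2 * (g 1) ^ 2 := by positivity
  have hb2 : ‖b‖ ^ 2 = ‖a‖ ^ 2 := by rw [hb]
  have hdet : (a 0 * b 1 - a 1 * b 0) ^ 2 = (‖a‖ ^ 2) ^ 2 := by
    rw [nsq2] at hb2 ⊢
    rw [inner2] at hab
    rw [nsq2] at hb2
    linear_combination (a 0 ^ 2 + a 1 ^ 2) * hb2 - (a 0 * b 0 + a 1 * b 1) * hab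
  have key : ‖(1 + 2 * θ) • proj (dir h g) (lift h a)‖ ^ 2 *
        ‖(1 + 2 * θ) • proj (dir h g) (lift h b)‖ ^ 2 -
        (inner ℝ ((1 + 2 * θ) • proj (dir h g) (lift h a))
          ((1 + 2 * θ) • proj (dir h g) (lift h b))) ^ 2 =
      ((1 + 2 * θ) ^ 2 * (h * (‖a‖ ^ 2 / Real.sqrt (1 + (g 0) ^ 2 + h ^ 2 * (g 1) ^ 2)))) ^ 2 := by
    have hg := gram_proj_lift h g a b
    rw [hdet] at hg
    rw [norm_smul, norm_smul, inner_smul_left, inner_smul_right, Real.norm_of_nonneg hpos.le]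
    simp only [conj_trivial]
    have e : ((1 + 2 * θ) ^ 2 * (h * (‖a‖ ^ 2 / Real.sqrt (1 + (g 0) ^ 2 + h ^ 2 * (g 1) ^ 2)))) ^ 2
        = (1 + 2 * θ) ^ 4 * (h ^ 2 * (‖a‖ ^ 2) ^ 2 / (1 + (g 0) ^ 2 + h ^ 2 * (g 1) ^ 2)) := by
      rw [mul_pow, mul_pow, div_pow, Real.sq_sqrt hQ.le]
      ring
    rw [e, ← hg]
    ring
  rw [key, Real.sqrt_sq]
  positivity

/-- the cylinder over `base` in direction `dir`: all the properties of one piece. -/
lemma piece
    (hPar : ∀ p A B : EuclideanSpace ℝ (Fin 3),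
      μHE[2] (convexHull ℝ ({p, p + A, p + B, p + A + B} : Set (EuclideanSpace ℝ (Fin 3)))) ≤
        ENNReal.ofReal (Real.sqrt (‖A‖ ^ 2 * ‖B‖ ^ 2 - (inner ℝ A B) ^ 2)))
    (h θ : ℝ) (hh : 0 < h) (hθ : 0 < θ) (c a b g : EuclideanSpace ℝ (Fin 2))
    (ha : a ≠ 0) (hb : ‖b‖ = ‖a‖) (hab : inner ℝ a b = 0) :
    Bornology.IsBounded (base h θ c a b g) ∧
    (∀ z : EuclideanSpace ℝ (Fin 3),
      (∃ x ∈ Set.Icc (0 : ℝ) 1, ∃ y ∈ Set.Icc (0 : ℝ) 1, flat h g z = c + x • a + y • b) →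
        ∃ y ∈ base h θ c a b g, ∃ τ : ℝ, z = y + τ • dir h g) ∧
    (μHE[2] (base h θ c a b g)).toReal ≤
      (1 + 2 * θ) ^ 2 * (h * (‖a‖ ^ 2 / Real.sqrt (1 + (g 0) ^ 2 + h ^ 2 * (g 1) ^ 2))) := by
  have hsub := base_subset h θ hh hθ c a b g ha hb hab
  have hA : 0 < ‖a‖ ^ 2 := by positivity
  refine ⟨?_, ?_, ?_⟩
  · refine Bornology.IsBounded.subset ?_ hsub
    rw [isBounded_convexHull]
    exact (Set.toFinite _).isBounded
  · rintro z ⟨x, hx, y, hy, hz⟩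
    refine ⟨proj (dir h g) z, ⟨?_, inner_proj _ _ (norm_dir h g)⟩, inner ℝ z (dir h g), ?_⟩
    · have hfl : flat h g (proj (dir h g) z) - c = x • a + y • b := by
        rw [flat_proj h hh.ne', hz]; abel
      have hba : inner ℝ b a = 0 := by rw [real_inner_comm]; exact hab
      have i1 : inner ℝ (x • a + y • b) a = x * ‖a‖ ^ 2 := by
        rw [inner_add_left, inner_smul_left, inner_smul_left, hba, real_inner_self_eq_norm_sq]
        simp
      have i2 : inner ℝ (x • a + y • b) b = y * ‖a‖ ^ 2 := by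
        rw [inner_add_left, inner_smul_left, inner_smul_left, hab, real_inner_self_eq_norm_sq, hb]
        simp
      show _ ∧ _ ∧ _ ∧ _
      rw [hfl, i1, i2]
      obtain ⟨hx0, hx1⟩ := hx
      obtain ⟨hy0, hy1⟩ := hy
      refine ⟨?_, ?_, ?_, ?_⟩ <;> nlinarith
    · unfold proj; abel
  · have hle : μHE[2] (base h θ c a b g) ≤ ENNReal.ofReal
        ((1 + 2 * θ) ^ 2 * (h * (‖a‖ ^ 2 / Real.sqrt (1 + (g 0) ^ 2 + h ^ 2 * (g 1) ^ 2)))) := by
      refine (measure_mono hsub).trans ?_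
      refine (hPar _ _ _).trans ?_
      rw [area_formula h θ hh hθ a b g hb hab]
    exact ENNReal.toReal_le_of_le_ofReal (by positivity) hle

/-- **Transport theorem.** The conclusion of S0329 follows from the conclusion of S0326 (`hS`, with
`L = M` and the same `h`) and the Gram-area bound `hPar` for parallelograms in `ℝ³`. -/
theorem transport
    (hPar : ∀ p A B : EuclideanSpace ℝ (Fin 3),
      μHE[2] (convexHull ℝ ({p, p + A, p + B, p + A + B} : Set (EuclideanSpace ℝ (Fin 3)))) ≤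
        ENNReal.ofReal (Real.sqrt (‖A‖ ^ 2 * ‖B‖ ^ 2 - (inner ℝ A B) ^ 2)))
    (h M : ℝ) (hh : 0 < h) (D : Set (EuclideanSpace ℝ (Fin 2)))
    (V : EuclideanSpace ℝ (Fin 2) → EuclideanSpace ℝ (Fin 2))
    (hS : ∀ ε' : ℝ, 0 < ε' →
      ∃ (k : ℕ) (c a b g : Fin k → EuclideanSpace ℝ (Fin 2)),
        (∀ i, a i ≠ 0 ∧ ‖b i‖ = ‖a i‖ ∧ inner ℝ (a i) (b i) = 0) ∧
        {z : ℝ × EuclideanSpace ℝ (Fin 2) | ∃ p ∈ D, abs z.1 ≤ M ∧ z.2 = p + z.1 • V p} ⊆
          ⋃ i, {z : ℝ × EuclideanSpace ℝ (Fin 2) | ∃ x ∈ Set.Icc (0 : ℝ) 1,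
            ∃ y ∈ Set.Icc (0 : ℝ) 1, z.2 = c i + x • a i + y • b i + z.1 • g i} ∧
        ∑ i, ‖a i‖ ^ 2 / Real.sqrt (1 + (g i 0) ^ 2 + h ^ 2 * (g i 1) ^ 2) ≤
          (∫ p in D, 1 / Real.sqrt (1 + (V p 0) ^ 2 + h ^ 2 * (V p 1) ^ 2)) + ε')
    (ε : ℝ) (hε : 0 < ε) :
    ∃ (k : ℕ) (u : Fin k → EuclideanSpace ℝ (Fin 3)) (B : Fin k → Set (EuclideanSpace ℝ (Fin 3))),
      (∀ i, ‖u i‖ = 1) ∧
      (∀ i, Bornology.IsBounded (B i) ∧ ∃ O : Set (EuclideanSpace ℝ (Fin 3)), IsOpen O ∧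
        B i = O ∩ {x | inner ℝ x (u i) = 0}) ∧
      {z : EuclideanSpace ℝ (Fin 3) | ∃ p ∈ D, ∃ x : ℝ, abs x ≤ M ∧
          z = !₂[x, p 0 + x * V p 0, h * (p 1 + x * V p 1)]} ⊆
        ⋃ i, {z : EuclideanSpace ℝ (Fin 3) | ∃ y ∈ B i, ∃ τ : ℝ, z = y + τ • u i} ∧
      ∑ i, (μHE[2] (B i)).toReal ≤
        h * (∫ p in D, 1 / Real.sqrt (1 + (V p 0) ^ 2 + h ^ 2 * (V p 1) ^ 2)) + ε := by
  obtain ⟨k, c, a, b, g, hab, hcov, hsum⟩ := hS (ε / (2 * h)) (by positivity)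
  set T : ℝ := ∑ i, ‖a i‖ ^ 2 / Real.sqrt (1 + (g i 0) ^ 2 + h ^ 2 * (g i 1) ^ 2) with hT
  have hT0 : 0 ≤ T := Finset.sum_nonneg fun i _ => by positivity
  have hden : 0 < 16 * (h * T + 1) := by positivity
  set θ : ℝ := min 1 (ε / (16 * (h * T + 1))) with hθdef
  have hθ0 : 0 < θ := lt_min one_pos (by positivity)
  have hθ1 : θ ≤ 1 := min_le_left _ _
  have hθ2 : θ * (16 * (h * T + 1)) ≤ ε := by
    have : θ ≤ ε / (16 * (h * T + 1)) := min_le_right _ _
    rwa [le_div_iff₀ hden] at this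
  have hpiece := fun i : Fin k =>
    piece hPar h θ hh hθ0 (c i) (a i) (b i) (g i) (hab i).1 (hab i).2.1 (hab i).2.2
  refine ⟨k, fun i => dir h (g i), fun i => base h θ (c i) (a i) (b i) (g i),
    fun i => norm_dir h (g i), fun i => ⟨(hpiece i).1, opn h θ (c i) (a i) (b i) (g i),
      isOpen_opn _ _ _ _ _ _, rfl⟩, ?_, ?_⟩
  · rintro z ⟨p, hp, x, hx, rfl⟩
    have hmem : ((x, p + x • V p) : ℝ × EuclideanSpace ℝ (Fin 2)) ∈
        {z : ℝ × EuclideanSpace ℝ (Fin 2) | ∃ p ∈ D, abs z.1 ≤ M ∧ z.2 = p + z.1 • V p} :=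
      ⟨p, hp, hx, rfl⟩
    obtain ⟨i, x', hx', y', hy', hz⟩ := Set.mem_iUnion.mp (hcov hmem)
    simp only at hz
    refine Set.mem_iUnion.mpr ⟨i, (hpiece i).2.1 _ ⟨x', hx', y', hy', ?_⟩⟩
    have h0 := congrArg (fun v : EuclideanSpace ℝ (Fin 2) => v 0) hz
    have h1 := congrArg (fun v : EuclideanSpace ℝ (Fin 2) => v 1) hz
    simp only [PiLp.add_apply, PiLp.smul_apply, smul_eq_mul] at h0 h1
    ext j
    fin_cases j
    · simp only [Fin.zero_eta, flat_zero, PiLp.add_apply, PiLp.smul_apply, smul_eq_mul]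
      simp
      linarith
    · simp only [Fin.mk_one, flat_one, PiLp.add_apply, PiLp.smul_apply, smul_eq_mul]
      simp
      field_simp
      linarith
  · have h1 : ∑ i, (μHE[2] (base h θ (c i) (a i) (b i) (g i))).toReal ≤
        ∑ i, (1 + 2 * θ) ^ 2 *
          (h * (‖a i‖ ^ 2 / Real.sqrt (1 + (g i 0) ^ 2 + h ^ 2 * (g i 1) ^ 2))) :=
      Finset.sum_le_sum fun i _ => (hpiece i).2.2
    have h2 : ∑ i, (1 + 2 * θ) ^ 2 *
          (h * (‖a i‖ ^ 2 / Real.sqrt (1 + (g i 0) ^ 2 + h ^ 2 * (g i 1) ^ 2))) =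
        (1 + 2 * θ) ^ 2 * (h * T) := by
      rw [hT, Finset.mul_sum, Finset.mul_sum]
    have h3 : h * T ≤ h * (∫ p in D, 1 / Real.sqrt (1 + (V p 0) ^ 2 + h ^ 2 * (V p 1) ^ 2)) +
        ε / 2 := by
      have := mul_le_mul_of_nonneg_left hsum hh.le
      have e : h * (ε / (2 * h)) = ε / 2 := by field_simp
      rw [mul_add, e] at this
      exact this
    have h4 : (1 + 2 * θ) ^ 2 * (h * T) ≤ h * T + ε / 2 := by
      have hhT : 0 ≤ h * T := by positivity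
      nlinarith [mul_nonneg hθ0.le hhT, mul_nonneg (mul_nonneg hθ0.le hhT) (sub_nonneg.mpr hθ1)]
    calc ∑ i, (μHE[2] (base h θ (c i) (a i) (b i) (g i))).toReal
        ≤ (1 + 2 * θ) ^ 2 * (h * T) := h1.trans_eq h2
      _ ≤ h * T + ε / 2 := h4
      _ ≤ h * (∫ p in D, 1 / Real.sqrt (1 + (V p 0) ^ 2 + h ^ 2 * (V p 1) ^ 2)) + ε := by
        linarith

end Crest.Agent.Helper60.Ruled3
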