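import Mathlib
import Crest.Agent.Helper29.TriArea
import Crest.Agent.Helper60.Ruled3.Transport

/-!
# Row 211, statement S0329: the transport theorem with the area input discharged

`hPar` (the Gram-area upper bound for closed parallelograms given as convex hulls of four points)
is derived from helper29's area toolkit (`Crest.Agent.Helper29.euclideanHausdorff_parallelogram`),
and `transport_of_S0326` is `transport` with that hypothesis removed.
-/

set_option autoImplicit false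
open MeasureTheory
open scoped ENNReal

namespace Crest.Agent.Helper60.Ruled3

/-- The convex hull of the four vertices lies in the parametrised parallelogram. -/
lemma convexHull_subset_param (p A B : EuclideanSpace ℝ (Fin 3)) :
    convexHull ℝ ({p, p + A, p + B, p + A + B} : Set (EuclideanSpace ℝ (Fin 3))) ⊆
      {x | ∃ s ∈ Set.Icc (0 : ℝ) 1, ∃ t ∈ Set.Icc (0 : ℝ) 1, x = p + s • A + t • B} := by
  apply convexHull_min
  · intro x hx
    simp only [Set.mem_insert_iff, Set.mem_singleton_iff] at hx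
    rcases hx with rfl | rfl | rfl | rfl
    · exact ⟨0, by simp, 0, by simp, by simp⟩
    · exact ⟨1, by simp, 0, by simp, by simp⟩
    · exact ⟨0, by simp, 1, by simp, by simp⟩
    · exact ⟨1, by simp, 1, by simp, by simp⟩
  · rintro x ⟨s₁, hs₁, t₁, ht₁, rfl⟩ y ⟨s₂, hs₂, t₂, ht₂, rfl⟩ α β hα hβ hαβ
    refine ⟨α * s₁ + β * s₂, ⟨by nlinarith [hs₁.1, hs₂.1], ?_⟩,
      α * t₁ + β * t₂, ⟨by nlinarith [ht₁.1, ht₂.1], ?_⟩, ?_⟩
    · nlinarith [hs₁.2, hs₂.2]
    · nlinarith [ht₁.2, ht₂.2]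
    · have hβ' : β = 1 - α := by linarith
      subst hβ'
      simp only [smul_add, add_smul, sub_smul, one_smul, smul_smul]
      abel

/-- **Gram-area bound for parallelograms** in `ℝ³` (from helper29's area toolkit). -/
theorem hPar (p A B : EuclideanSpace ℝ (Fin 3)) :
    μHE[2] (convexHull ℝ ({p, p + A, p + B, p + A + B} : Set (EuclideanSpace ℝ (Fin 3)))) ≤
      ENNReal.ofReal (Real.sqrt (‖A‖ ^ 2 * ‖B‖ ^ 2 - (inner ℝ A B) ^ 2)) :=
  Crest.Agent.Helper29.euclideanHausdorff_le_of_subset_parallelogram p A B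
    (convexHull_subset_param p A B)

/-- **S0329 from S0326**: the conclusion of S0329 follows from the conclusion of S0326 (`hS`, with
`L = M` and the same `h`). -/
theorem transport_of_S0326
    (h M : ℝ) (hh : 0 < h) (D : Set (EuclideanSpace ℝ (Fin 2)))
    (V : EuclideanSpace ℝ (Fin 2) → EuclideanSpace ℝ (Fin 2))
    (hS : ∀ ε' : ℝ, 0 < ε' →
      ∃ (k : ℕ) (c a b g : Fin k → EuclideanSpace ℝ (Fin 2)),
        (∀ i, a i ≠ 0 ∧ ‖b i‖ = ‖a i‖ ∧ inner ℝ (a i) (b i) = 0) ∧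
        {z : ℝ × EuclideanSpace ℝ (Fin 2) | ∃ p ∈ D, abs z.1 ≤ M ∧ z.2 = p + z.1 • V p} ⊆
          ⋃ i, {z : ℝ × EuclideanSpace ℝ (Fin 2) | ∃ x ∈ Set.Icc (0 : ℝ) 1,
            ∃ y ∈ Set.Icc (0 : ℝ) 1, z.2 = c i + x • a i + y • b i + z.1 • g i} ∧
        ∑ i, ‖a i‖ ^ 2 / Real.sqrt (1 + (g i 0) ^ 2 + h ^ 2 * (g i 1) ^ 2) ≤
          (∫ p in D, 1 / Real.sqrt (1 + (V p 0) ^ 2 + h ^ 2 * (V p 1) ^ 2)) + ε')
    (ε : ℝ) (hε : 0 < ε) :
    ∃ (k : ℕ) (u : Fin k → EuclideanSpace ℝ (Fin 3)) (B : Fin k → Set (EuclideanSpace ℝ (Fin 3))),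
      (∀ i, ‖u i‖ = 1) ∧
      (∀ i, Bornology.IsBounded (B i) ∧ ∃ O : Set (EuclideanSpace ℝ (Fin 3)), IsOpen O ∧
        B i = O ∩ {x | inner ℝ x (u i) = 0}) ∧
      {z : EuclideanSpace ℝ (Fin 3) | ∃ p ∈ D, ∃ x : ℝ, abs x ≤ M ∧
          z = !₂[x, p 0 + x * V p 0, h * (p 1 + x * V p 1)]} ⊆
        ⋃ i, {z : EuclideanSpace ℝ (Fin 3) | ∃ y ∈ B i, ∃ τ : ℝ, z = y + τ • u i} ∧
      ∑ i, (μHE[2] (B i)).toReal ≤
        h * (∫ p in D, 1 / Real.sqrt (1 + (V p 0) ^ 2 + h ^ 2 * (V p 1) ^ 2)) + ε :=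
  transport hPar h M hh D V hS ε hε

end Crest.Agent.Helper60.Ruled3
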